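import Vale.Agent.P192.H437.Wob
import Vale.Agent.P192.H663.CMDefs

set_option linter.all false

/-!
# P192: permutations of a linear order with bounded displacement off a finite set
-/

namespace Vale.Agent.P192.H14

open Vale.Agent.P192 Vale.Agent.P192.H437 Function SimpleGraph

variable {K : Type} [LinearOrder K]

/-- finite distance -/
def fd (K : Type) [LinearOrder K] : Setoid K where
  r x y := (Set.uIcc x y).Finite
  iseqv := ⟨fun x => by simp, fun {x y} h => by rwa [Set.uIcc_comm], fun {x y z} h1 h2 =>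
    (h1.union h2).subset Set.uIcc_subset_uIcc_union_uIcc⟩

/-- base point of the class -/
noncomputable def bs (x : K) : K := (Quotient.mk (fd K) x).out

theorem bs_fin (x : K) : (Set.uIcc (bs x) x).Finite := Quotient.mk_out (s := fd K) x

theorem bs_eq {x y : K} (h : (Set.uIcc x y).Finite) : bs x = bs y := by
  unfold bs
  rw [Quotient.sound (s := fd K) (a := x) (b := y) h]

theorem ico_fin {a b : K} (h : (Set.uIcc a b).Finite) : (Set.Ico a b).Finite :=
  h.subset fun x hx => Set.Icc_subset_uIcc ⟨hx.1, hx.2.le⟩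

theorem ncard_split {a b c : K} (hab : a ≤ b) (hbc : b ≤ c) (hf : (Set.Ico a c).Finite) :
    (Set.Ico a c).ncard = (Set.Ico a b).ncard + (Set.Ico b c).ncard := by
  rw [← Set.Ico_union_Ico_eq_Ico hab hbc] at hf ⊢
  rw [Set.finite_union] at hf
  refine Set.ncard_union_eq ?_ hf.1 hf.2
  rw [Set.disjoint_left]
  intro x hx hx'
  exact absurd hx.2 (not_lt.2 hx'.1)

/-- the position in the class -/
noncomputable def pos (x : K) : ℤ :=
  ((Set.Ico (bs x) x).ncard : ℤ) - ((Set.Ico x (bs x)).ncard : ℤ)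

theorem ico_zero {a b : K} (h : b ≤ a) : (Set.Ico a b).ncard = 0 := by
  rw [Set.Ico_eq_empty (not_lt.2 h), Set.ncard_empty]

theorem pos_le {x y : K} (h : (Set.uIcc x y).Finite) (hxy : x ≤ y) :
    pos y = pos x + ((Set.Ico x y).ncard : ℤ) := by
  have hx := bs_fin x
  have hy := bs_fin y
  have e := bs_eq h
  unfold pos
  rw [← e] at hy ⊢
  set b := bs x with hb
  have h1 : (Set.Ico b x).Finite := ico_fin hx
  have h2 : (Set.Ico b y).Finite := ico_fin hy
  have h3 : (Set.Ico x b).Finite := ico_fin (by rwa [Set.uIcc_comm])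
  have h4 : (Set.Ico y b).Finite := ico_fin (by rwa [Set.uIcc_comm])
  have h5 : (Set.Ico x y).Finite := ico_fin h
  rcases le_total b x with hbx | hbx
  · rw [ncard_split hbx hxy h2, ico_zero hbx, ico_zero (hbx.trans hxy)]
    push_cast
    ring
  · rcases le_total b y with hby | hby
    · rw [ncard_split hbx hby h5, ico_zero hbx, ico_zero hby]
      push_cast
      ring
    · rw [ncard_split hxy hby h3, ico_zero hbx, ico_zero hby]
      push_cast
      ring

/-- near: finite distance and positions at distance at most `n` -/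
def near (n : ℕ) (x y : K) : Prop := (Set.uIcc x y).Finite ∧ |pos x - pos y| ≤ n

theorem near_refl (x : K) : near 0 x x := ⟨by simp, by simp⟩

theorem near_symm {n : ℕ} {x y : K} (h : near n x y) : near n y x :=
  ⟨by rw [Set.uIcc_comm]; exact h.1, by rw [abs_sub_comm]; exact h.2⟩

theorem near_trans {m n : ℕ} {x y z : K} (h1 : near m x y) (h2 : near n y z) :
    near (m + n) x z := by
  refine ⟨(h1.1.union h2.1).subset Set.uIcc_subset_uIcc_union_uIcc, ?_⟩
  have e : pos x - pos z = (pos x - pos y) + (pos y - pos z) := by ring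
  rw [e]
  refine (abs_add_le _ _).trans ?_
  push_cast
  exact add_le_add h1.2 h2.2

theorem near_mono {m n : ℕ} (hmn : m ≤ n) {x y : K} (h : near m x y) : near n x y :=
  ⟨h.1, h.2.trans (by exact_mod_cast hmn)⟩

theorem pos_inj {x y : K} (h : (Set.uIcc x y).Finite) (e : pos x = pos y) : x = y := by
  wlog hxy : x ≤ y generalizing x y
  · exact (this (by rwa [Set.uIcc_comm]) e.symm (le_of_not_ge hxy)).symm
  have h1 := pos_le h hxy
  by_contra hne
  have hlt : x < y := lt_of_le_of_ne hxy hne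
  have h2 : 0 < (Set.Ico x y).ncard := (Set.ncard_pos (ico_fin h)).2 ⟨x, le_rfl, hlt⟩
  omega

/-- the graph: neighbours, and a clique -/
def Gr (E : Set K) : SimpleGraph K where
  Adj x y := x ≠ y ∧ (Set.uIcc x y ⊆ {x, y} ∨ (x ∈ E ∧ y ∈ E))
  symm := ⟨fun x y h => ⟨h.1.symm, h.2.imp (fun h => by
    rw [Set.uIcc_comm, Set.pair_comm]; exact h) fun h => ⟨h.2, h.1⟩⟩⟩
  loopless := ⟨fun x h => h.1 rfl⟩

theorem near_of_sub {x y : K} (h : Set.uIcc x y ⊆ {x, y}) : near 1 x y := by
  have hf : (Set.uIcc x y).Finite := (Set.toFinite {x, y}).subset h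
  refine ⟨hf, ?_⟩
  wlog hxy : x ≤ y generalizing x y
  · rw [abs_sub_comm]
    exact this (by rw [Set.uIcc_comm, Set.pair_comm]; exact h) (by rwa [Set.uIcc_comm])
      (le_of_not_ge hxy)
  have h1 := pos_le hf hxy
  have h2 : (Set.Ico x y).ncard ≤ 1 := by
    have h3 : Set.Ico x y ⊆ {x} := by
      intro z hz
      rcases h (Set.Icc_subset_uIcc ⟨hz.1, hz.2.le⟩) with h4 | h4
      · exact h4
      · exact absurd hz.2 (by rw [h4]; exact lt_irrefl _)
    have := Set.ncard_le_ncard h3 (Set.toFinite _)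
    rwa [Set.ncard_singleton] at this
  rw [abs_le]
  constructor <;> push_cast <;> omega

/-- near the clique -/
def NE (E : Set K) (n : ℕ) : Set K := {z | ∃ e ∈ E, near n z e}

theorem walk_near {E : Set K} {x y : K} (p : (Gr E).Walk x y) :
    near p.length x y ∨ (x ∈ NE E p.length ∧ y ∈ NE E p.length) := by
  induction p with
  | nil => exact Or.inl (near_refl _)
  | @cons a b c hab p ih =>
    rw [SimpleGraph.Walk.length_cons]
    rcases hab.2 with h1 | h1
    · have h2 := near_of_sub h1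
      rcases ih with h3 | ⟨⟨e, he, h3⟩, e', he', h4⟩
      · left
        rw [add_comm]
        exact near_trans h2 h3
      · right
        refine ⟨⟨e, he, ?_⟩, e', he', near_mono (by omega) h4⟩
        rw [add_comm]
        exact near_trans h2 h3
    · right
      refine ⟨⟨a, h1.1, near_mono (by omega) (near_refl a)⟩, ?_⟩
      rcases ih with h3 | ⟨-, e', he', h4⟩
      · exact ⟨b, h1.2, near_mono (by omega) (near_symm h3)⟩
      · exact ⟨e', he', near_mono (by omega) h4⟩

theorem edist_near {E : Set K} {x y : K} {n : ℕ} (h : (Gr E).edist x y ≤ n) :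
    near n x y ∨ (x ∈ NE E n ∧ y ∈ NE E n) := by
  obtain ⟨p, hp⟩ := H630.walk_of_edist h
  rcases walk_near p with h1 | ⟨⟨e, he, h1⟩, e', he', h2⟩
  · exact Or.inl (near_mono hp h1)
  · exact Or.inr ⟨⟨e, he, near_mono hp h1⟩, e', he', near_mono hp h2⟩

theorem edist_le (E : Set K) (n : ℕ) : ∀ x y : K, x ≤ y → (Set.uIcc x y).Finite →
    (Set.Ico x y).ncard = n → (Gr E).edist x y ≤ n := by
  induction n with
  | zero =>
    intro x y hxy hf h0
    rw [Set.ncard_eq_zero (ico_fin hf)] at h0
    have : x = y := by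
      by_contra hne
      have : x ∈ Set.Ico x y := ⟨le_rfl, lt_of_le_of_ne hxy hne⟩
      rw [h0] at this
      exact this
    rw [this, SimpleGraph.edist_self]
    exact zero_le
  | succ n ih =>
    intro x y hxy hf h0
    have hlt : x < y := by
      refine lt_of_le_of_ne hxy fun e => ?_
      rw [ico_zero e.ge] at h0
      omega
    have hA : (Set.Ioc x y).Finite := hf.subset fun z hz => Set.Icc_subset_uIcc ⟨hz.1.le, hz.2⟩
    obtain ⟨x', hx', hmin⟩ := Set.exists_min_image (Set.Ioc x y) id hA ⟨y, hlt, le_rfl⟩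
    have hadj : (Gr E).Adj x x' := by
      refine ⟨hx'.1.ne, Or.inl ?_⟩
      rw [Set.uIcc_of_le hx'.1.le]
      intro z hz
      rcases hz.1.eq_or_lt with h1 | h1
      · exact Or.inl h1.symm
      · exact Or.inr (le_antisymm hz.2 (hmin z ⟨h1, hz.2.trans hx'.2⟩))
    have h1 := ncard_split hx'.1.le hx'.2 (ico_fin hf)
    have h2 : (Set.Ico x x').ncard = 1 := by
      rw [Set.ncard_eq_one]
      refine ⟨x, ?_⟩
      ext z
      constructor
      · intro hz
        rcases hz.1.eq_or_lt with h1 | h1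
        · exact h1.symm
        · exact absurd hz.2 (not_lt.2 (hmin z ⟨h1, hz.2.le.trans hx'.2⟩))
      · rintro rfl
        exact ⟨le_rfl, hx'.1⟩
    have h3 := ih x' y hx'.2 (hf.subset (Set.uIcc_subset_uIcc
      (by rw [Set.uIcc_of_le hxy]; exact ⟨hx'.1.le, hx'.2⟩) Set.right_mem_uIcc)) (by omega)
    calc (Gr E).edist x y ≤ (Gr E).edist x x' + (Gr E).edist x' y :=
          SimpleGraph.edist_triangle
      _ ≤ 1 + n := add_le_add (SimpleGraph.edist_le_one_iff_adj_or_eq.2 (Or.inl hadj)) h3
      _ = ((n + 1 : ℕ) : ℕ∞) := by push_cast; rw [add_comm]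

theorem edist_of_encard (E : Set K) {x y : K} {D : ℕ} (h : (Set.uIcc x y).encard ≤ D) :
    (Gr E).edist x y ≤ D := by
  wlog hxy : x ≤ y generalizing x y
  · rw [SimpleGraph.edist_comm]
    exact this (by rwa [Set.uIcc_comm]) (le_of_not_ge hxy)
  have hf : (Set.uIcc x y).Finite := Set.finite_of_encard_le_coe h
  refine (edist_le E _ x y hxy hf rfl).trans ?_
  have h1 : (Set.Ico x y).encard ≤ D := (Set.encard_le_encard fun z hz =>
    Set.Icc_subset_uIcc ⟨hz.1, hz.2.le⟩).trans h
  rw [← (ico_fin hf).cast_ncard_eq] at h1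
  exact h1

/-- the block of a point -/
def blk (q : ℤ) (x : K) : Set K := {y | (Set.uIcc x y).Finite ∧ pos y / q = pos x / q}

theorem blk_card (q : ℕ) (hq : 0 < q) (x : K) : (blk (q : ℤ) x).encard ≤ q := by
  have hq' : (0 : ℤ) < q := by exact_mod_cast hq
  have h1 : Set.InjOn pos (blk (q : ℤ) x) := by
    intro y hy z hz e
    exact pos_inj (((by rw [Set.uIcc_comm]; exact hy.1 : (Set.uIcc y x).Finite).union hz.1).subset
      Set.uIcc_subset_uIcc_union_uIcc) e
  rw [← h1.encard_image]
  have h2 : pos '' blk (q : ℤ) x ⊆ ((Finset.Ico (q * (pos x / q)) (q * (pos x / q) + q) :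
      Finset ℤ) : Set ℤ) := by
    rintro _ ⟨y, hy, rfl⟩
    rw [Finset.coe_Ico]
    have e : pos y / (q : ℤ) = pos x / (q : ℤ) := hy.2
    have h3 := Int.emod_add_mul_ediv (pos y) q
    have h4 := Int.emod_nonneg (pos y) hq'.ne'
    have h5 := Int.emod_lt_of_pos (pos y) hq'
    rw [e] at h3
    constructor <;> linarith
  refine (Set.encard_le_encard h2).trans ?_
  rw [Set.encard_coe_eq_coe_finsetCard, Int.card_Ico]
  simp

theorem blk_self (q : ℤ) (x : K) : x ∈ blk q x := ⟨by simp, rfl⟩

theorem blk_trans {q : ℤ} {x y z : K} (h1 : y ∈ blk q x) (h2 : z ∈ blk q y) : z ∈ blk q x :=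
  ⟨(h1.1.union h2.1).subset Set.uIcc_subset_uIcc_union_uIcc, h2.2.trans h1.2⟩

/-- one step in a colour stays in the block -/
theorem same_blk {r : ℕ} {x y : K} (h : near r x y)
    (hc : (Even (pos x / ((r + 1 : ℕ) : ℤ)) ↔ Even (pos y / ((r + 1 : ℕ) : ℤ)))) :
    y ∈ blk ((r + 1 : ℕ) : ℤ) x := by
  refine ⟨h.1, ?_⟩
  set q : ℤ := ((r + 1 : ℕ) : ℤ) with hq
  have hq0 : 0 < q := by rw [hq]; exact_mod_cast Nat.succ_pos r
  have hr : (r : ℤ) < q := by rw [hq]; push_cast; omega
  have h2 := abs_le.1 h.2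
  have a1 := Int.emod_add_mul_ediv (pos x) q
  have a2 := Int.emod_nonneg (pos x) hq0.ne'
  have a3 := Int.emod_lt_of_pos (pos x) hq0
  have b1 := Int.emod_add_mul_ediv (pos y) q
  have b2 := Int.emod_nonneg (pos y) hq0.ne'
  have b3 := Int.emod_lt_of_pos (pos y) hq0
  set A := pos x / q with hA
  set B := pos y / q with hB
  by_contra hne
  have hne' : B ≠ A := hne
  have h3 : A + 2 ≤ B ∨ B + 2 ≤ A := by
    rcases Int.even_or_odd A with hA' | hA'
    · have hB' := hc.1 hA'
      obtain ⟨a, ha⟩ := hA'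
      obtain ⟨b, hb⟩ := hB'
      omega
    · have hB' : Odd B := by
        rw [← Int.not_even_iff_odd] at hA' ⊢
        exact fun h => hA' (hc.2 h)
      obtain ⟨a, ha⟩ := hA'
      obtain ⟨b, hb⟩ := hB'
      omega
  rcases h3 with h3 | h3
  · have h4 : q * (A + 2) ≤ q * B := mul_le_mul_of_nonneg_left h3 hq0.le
    nlinarith [h2.1]
  · have h4 : q * (B + 2) ≤ q * A := mul_le_mul_of_nonneg_left h3 hq0.le
    nlinarith [h2.2]

theorem ne_fin {E : Set K} (hE : E.Finite) (n : ℕ) : (NE E n).Finite := by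
  have h1 : NE E n = ⋃ e ∈ E, {z | near n z e} := by
    ext z
    simp only [NE, Set.mem_iUnion, Set.mem_setOf_eq, exists_prop]
  rw [h1]
  refine hE.biUnion fun e _ => ?_
  refine Set.Finite.of_finite_image (f := pos) ((Set.finite_Icc (pos e - n) (pos e + n)).subset ?_)
    ?_
  · rintro _ ⟨z, hz, rfl⟩
    have := abs_le.1 hz.2
    constructor <;> linarith [this.1, this.2]
  · intro y hy z hz h
    exact pos_inj ((hy.1.union (near_symm hz).1).subset Set.uIcc_subset_uIcc_union_uIcc) h

/-- **row WOB** -/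
theorem wob : CM.WOB_statement := by
  intro K _ G hG Γ _ hfp hper f
  haveI := hfp
  classical
  obtain ⟨S, hSf, hS⟩ := H630.exists_gens Γ
  have hW : ∀ γ : Γ, ∃ D : ℕ, {x | ¬ (Set.uIcc x ((f γ).1 x)).encard ≤ D}.Finite :=
    fun γ => hG _ (f γ).2
  choose D hD using hW
  obtain ⟨c0, hc0⟩ := H630.exists_bound hSf D
  set B : Γ → Set K := fun γ => {x | ¬ (Set.uIcc x ((f γ).1 x)).encard ≤ D γ} with hB
  set E : Set K := ⋃ s ∈ S, (B s ∪ (f s).1 '' B s) with hE
  have hEf : E.Finite := hSf.biUnion fun s _ => (hD s).union ((hD s).image _)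
  obtain ⟨r, hr⟩ := uniform_two.{0, 0} Γ hper S hS (c0 + 1)
  set q : ℕ := r + 1 with hq
  set A : Set K := ⋃ z ∈ NE E r, blk (q : ℤ) z with hA
  have hAf : A.Finite := (ne_fin hEf r).biUnion fun z _ =>
    Set.finite_of_encard_le_coe (blk_card q (Nat.succ_pos r) z)
  obtain ⟨N, -, hN, h3⟩ := hr (q + A.ncard)
  set ρ : Γ →* Equiv.Perm K := G.subtype.comp f with hρ
  have h4 : ∀ g ∈ N, ρ g = 1 := by
    refine fun g hg => h3 K (Gr E) {x | Even (pos x / (q : ℤ))} ?_ ρ ?_ g hg
    · intro x
      have key : ∀ y, Relation.ReflTransGen (fun a b => (a ∈ {x | Even (pos x / (q : ℤ))} ↔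
          b ∈ {x | Even (pos x / (q : ℤ))}) ∧ (Gr E).edist a b ≤ r) x y →
          y ∈ blk (q : ℤ) x ∪ A := by
        intro y hy
        induction hy with
        | refl => exact Or.inl (blk_self _ _)
        | @tail b c _ hbc ih =>
          rcases edist_near hbc.2 with h1 | h1
          · have h2 : c ∈ blk (q : ℤ) b := same_blk h1 hbc.1
            rcases ih with h5 | h5
            · exact Or.inl (blk_trans h5 h2)
            · right
              obtain ⟨z, hz, h6⟩ := Set.mem_iUnion₂.1 h5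
              exact Set.mem_biUnion hz (blk_trans h6 h2)
          · exact Or.inr (Set.mem_biUnion h1.2 (blk_self _ _))
      refine (Set.encard_le_encard (fun y hy => key y hy)).trans ?_
      refine (Set.encard_union_le _ _).trans ?_
      rw [Nat.cast_add, ← hAf.cast_ncard_eq]
      exact add_le_add (blk_card q (Nat.succ_pos r) x) le_rfl
    · intro s hs x
      by_cases hx : x ∈ B s
      · by_cases he : x = ρ s x
        · rw [← he, SimpleGraph.edist_self]
          exact zero_le
        · have h5 : (Gr E).Adj x (ρ s x) := ⟨he, Or.inr ⟨Set.mem_biUnion hs (Or.inl hx),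
            Set.mem_biUnion hs (Or.inr ⟨x, hx, rfl⟩)⟩⟩
          refine (SimpleGraph.edist_le_one_iff_adj_or_eq.2 (Or.inl h5)).trans ?_
          push_cast
          exact le_add_self
      · have h5 : (Set.uIcc x ((f s).1 x)).encard ≤ D s := not_not.1 hx
        have h6 := edist_of_encard E h5
        refine h6.trans ?_
        exact_mod_cast (hc0 s hs).trans (Nat.le_succ c0)
  have h5 : Finite ρ.range := range_finite_of_kernel ρ N hN h4
  have h6 : ρ.range = f.range.map G.subtype := by
    rw [hρ, MonoidHom.range_comp]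
  rw [h6] at h5
  exact Finite.of_equiv _ (f.range.equivMapOfInjective G.subtype G.subtype_injective).toEquiv.symm

end Vale.Agent.P192.H14
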